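import Mathlib

namespace Vale.Agent.Results.P045.DegreeTwo

open Finset

/-- An `r`-partite `r`-uniform hypergraph is given by a finite set `H` of edges, an edge being
a function `e : Fin r → α`; the vertices are the pairs `(i, x)` (vertex `x` of part `i`) and the
edge `e` consists of the `r` vertices `(i, e i)`.  A set `C` of vertices is a vertex cover of `H`
if every edge contains a vertex of `C`. -/
def IsCover {r : ℕ} {α : Type*} (H : Finset (Fin r → α)) (C : Finset (Fin r × α)) : Prop :=
  ∀ e ∈ H, ∃ v ∈ C, e v.1 = v.2

/-- `M` is a matching of `H`: a set of edges of `H` that are pairwise disjoint, that is, two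
distinct edges of `M` differ in every part. -/
def IsMatching {r : ℕ} {α : Type*} (H M : Finset (Fin r → α)) : Prop :=
  M ⊆ H ∧ ∀ e ∈ M, ∀ f ∈ M, e ≠ f → ∀ i, e i ≠ f i

/-- The covering number: the least size of a vertex cover. -/
noncomputable def tau {r : ℕ} {α : Type*} (H : Finset (Fin r → α)) : ℕ :=
  sInf {k | ∃ C, IsCover H C ∧ C.card = k}

/-- The matching number: the largest size of a matching. -/
noncomputable def nu {r : ℕ} {α : Type*} (H : Finset (Fin r → α)) : ℕ :=
  sSup {k | ∃ M, IsMatching H M ∧ M.card = k}

theorem key {r : ℕ} (hr : 3 ≤ r) {α : Type*} [DecidableEq α] :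
    ∀ n (H : Finset (Fin r → α)), H.card = n →
      (∀ i x, (H.filter (fun e => e i = x)).card ≤ 2) →
      ∃ C M, IsCover H C ∧ IsMatching H M ∧ C.card ≤ (r - 1) * M.card := by
  classical
  intro n
  induction n using Nat.strong_induction_on with
  | _ n ih =>
    intro H hcard hdeg
    have i0 : Fin r := ⟨0, by omega⟩
    by_cases hA : ∃ e ∈ H, ∃ i, ∀ f ∈ H, f i = e i → f = e
    · -- some edge has a vertex lying in no other edge
      obtain ⟨e, heH, i, hi⟩ := hA
      have hlt : (H.filter (fun f => ∀ j, f j ≠ e j)).card < n := by
        rw [← hcard]
        apply Finset.card_lt_card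
        refine ⟨Finset.filter_subset _ _, ?_⟩
        intro hsub
        have h1 := hsub heH
        rw [Finset.mem_filter] at h1
        exact h1.2 i0 rfl
      have hdeg' : ∀ i x, ((H.filter (fun f => ∀ j, f j ≠ e j)).filter
          (fun e => e i = x)).card ≤ 2 := by
        intro i x
        refine le_trans (Finset.card_le_card ?_) (hdeg i x)
        exact Finset.filter_subset_filter _ (Finset.filter_subset _ _)
      obtain ⟨C', M', hC', hM', hle⟩ := ih _ hlt _ rfl hdeg'
      refine ⟨C' ∪ (Finset.univ.erase i).image (fun j => (j, e j)), insert e M', ?_, ?_, ?_⟩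
      · intro f hf
        by_cases hfe : ∀ j, f j ≠ e j
        · obtain ⟨v, hv, hv2⟩ := hC' f (Finset.mem_filter.2 ⟨hf, hfe⟩)
          exact ⟨v, Finset.mem_union_left _ hv, hv2⟩
        · push Not at hfe
          obtain ⟨j, hj⟩ := hfe
          by_cases hji : j = i
          · subst hji
            have hfe' : f = e := hi f hf hj
            subst hfe'
            obtain ⟨k, hk⟩ : ∃ k : Fin r, k ≠ j := by
              by_cases h0 : j = ⟨0, by omega⟩
              · exact ⟨⟨1, by omega⟩, by rw [h0]; simp [Fin.ext_iff]⟩
              · exact ⟨⟨0, by omega⟩, fun h => h0 h.symm⟩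
            exact ⟨(k, f k), Finset.mem_union_right _ (Finset.mem_image.2
              ⟨k, Finset.mem_erase.2 ⟨hk, Finset.mem_univ _⟩, rfl⟩), rfl⟩
          · exact ⟨(j, e j), Finset.mem_union_right _ (Finset.mem_image.2
              ⟨j, Finset.mem_erase.2 ⟨hji, Finset.mem_univ _⟩, rfl⟩), hj⟩
      · refine ⟨?_, ?_⟩
        · intro f hf
          rcases Finset.mem_insert.1 hf with rfl | hf
          · exact heH
          · exact (Finset.mem_filter.1 (hM'.1 hf)).1
        · intro f hf g hg hfg
          rcases Finset.mem_insert.1 hf with hfe | hf'
          · rcases Finset.mem_insert.1 hg with hge | hg'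
            · exact absurd (hfe.trans hge.symm) hfg
            · intro j h
              rw [hfe] at h
              exact (Finset.mem_filter.1 (hM'.1 hg')).2 j h.symm
          · rcases Finset.mem_insert.1 hg with hge | hg'
            · rw [hge]
              exact (Finset.mem_filter.1 (hM'.1 hf')).2
            · exact hM'.2 f hf' g hg' hfg
      · have heM : e ∉ M' := by
          intro h
          exact (Finset.mem_filter.1 (hM'.1 h)).2 i0 rfl
        rw [Finset.card_insert_of_notMem heM]
        have h1 : ((Finset.univ.erase i).image (fun j => (j, e j))).card ≤ r - 1 := by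
          refine le_trans Finset.card_image_le ?_
          rw [Finset.card_erase_of_mem (Finset.mem_univ _)]
          simp
        have h2 := Finset.card_union_le C' ((Finset.univ.erase i).image (fun j => (j, e j)))
        have h3 : (r - 1) * (M'.card + 1) = (r - 1) * M'.card + (r - 1) := by ring
        omega
    · -- every vertex of every edge lies in a second edge
      push Not at hA
      refine ⟨H.image (fun e => (i0, e i0)), ?_⟩
      -- a maximum matching
      have hne : (H.powerset.filter (fun M => IsMatching H M)).Nonempty := by
        refine ⟨∅, Finset.mem_filter.2 ⟨Finset.empty_mem_powerset _, Finset.empty_subset _, ?_⟩⟩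
        intro e he
        exact absurd he (Finset.notMem_empty _)
      obtain ⟨M, hMmem, hMmax⟩ := Finset.exists_max_image _ Finset.card hne
      have hM : IsMatching H M := (Finset.mem_filter.1 hMmem).2
      have hmaximal : ∀ e ∈ H, ∃ m ∈ M, ∃ i, e i = m i := by
        intro e he
        by_contra hcon
        push Not at hcon
        have heM : e ∉ M := fun h => hcon e h i0 rfl
        have hins : IsMatching H (insert e M) := by
          refine ⟨?_, ?_⟩
          · intro f hf
            rcases Finset.mem_insert.1 hf with rfl | hf
            · exact he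
            · exact hM.1 hf
          · intro f hf g hg hfg
            rcases Finset.mem_insert.1 hf with hfe | hf'
            · rcases Finset.mem_insert.1 hg with hge | hg'
              · exact absurd (hfe.trans hge.symm) hfg
              · rw [hfe]
                exact hcon g hg'
            · rcases Finset.mem_insert.1 hg with hge | hg'
              · intro j h
                rw [hge] at h
                exact hcon f hf' j h.symm
              · exact hM.2 f hf' g hg' hfg
        have h1 := hMmax (insert e M) (Finset.mem_filter.2
          ⟨Finset.mem_powerset.2 hins.1, hins⟩)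
        rw [Finset.card_insert_of_notMem heM] at h1
        omega
      refine ⟨M, ?_, hM, ?_⟩
      · intro e he
        exact ⟨(i0, e i0), Finset.mem_image_of_mem _ he, rfl⟩
      · -- counting
        have hfib : ∀ v ∈ H.image (fun e => (i0, e i0)),
            2 ≤ (H.filter (fun e => (i0, e i0) = v)).card := by
          intro v hv
          obtain ⟨e, he, rfl⟩ := Finset.mem_image.1 hv
          obtain ⟨f, hf, hfe, hne'⟩ := hA e he i0
          have : 1 < (H.filter (fun e' => (i0, e' i0) = (i0, e i0))).card := by
            rw [Finset.one_lt_card]
            refine ⟨e, Finset.mem_filter.2 ⟨he, rfl⟩, f, Finset.mem_filter.2 ⟨hf, ?_⟩,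
              fun h => hne' h.symm⟩
            rw [hfe]
          exact this
        have hH1 : 2 * (H.image (fun e => (i0, e i0))).card ≤ H.card := by
          rw [Finset.card_eq_sum_card_image (fun e => (i0, e i0)) H]
          calc 2 * (H.image (fun e => (i0, e i0))).card
              = ∑ _v ∈ H.image (fun e => (i0, e i0)), 2 := by
                rw [Finset.sum_const, smul_eq_mul, mul_comm]
            _ ≤ _ := Finset.sum_le_sum hfib
        have hnb : ∀ m ∈ M, (H.filter (fun e => ∃ i, e i = m i)).card ≤ r + 1 := by
          intro m hm
          have hmH : m ∈ H := hM.1 hm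
          have hsub : H.filter (fun e => ∃ i, e i = m i) ⊆
              insert m (Finset.univ.biUnion (fun i => (H.filter (fun e => e i = m i)).erase m)) := by
            intro e he
            obtain ⟨heH, i, hi⟩ := Finset.mem_filter.1 he
            by_cases hem : e = m
            · exact Finset.mem_insert.2 (Or.inl hem)
            · refine Finset.mem_insert.2 (Or.inr (Finset.mem_biUnion.2 ⟨i, Finset.mem_univ _, ?_⟩))
              exact Finset.mem_erase.2 ⟨hem, Finset.mem_filter.2 ⟨heH, hi⟩⟩
          refine le_trans (Finset.card_le_card hsub) ?_
          refine le_trans (Finset.card_insert_le _ _) ?_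
          have h1 : (Finset.univ.biUnion
              (fun i => (H.filter (fun e => e i = m i)).erase m)).card ≤ r := by
            refine le_trans Finset.card_biUnion_le ?_
            calc ∑ i : Fin r, ((H.filter (fun e => e i = m i)).erase m).card
                ≤ ∑ _i : Fin r, 1 := by
                  refine Finset.sum_le_sum ?_
                  intro i _
                  have hmem : m ∈ H.filter (fun e => e i = m i) :=
                    Finset.mem_filter.2 ⟨hmH, rfl⟩
                  rw [Finset.card_erase_of_mem hmem]
                  have := hdeg i (m i)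
                  omega
              _ = r := by simp
          omega
        have hH2 : H.card ≤ M.card * (r + 1) := by
          have hsub : H ⊆ M.biUnion (fun m => H.filter (fun e => ∃ i, e i = m i)) := by
            intro e he
            obtain ⟨m, hm, i, hi⟩ := hmaximal e he
            exact Finset.mem_biUnion.2 ⟨m, hm, Finset.mem_filter.2 ⟨he, i, hi⟩⟩
          refine le_trans (Finset.card_le_card hsub) ?_
          refine le_trans Finset.card_biUnion_le ?_
          calc ∑ m ∈ M, (H.filter (fun e => ∃ i, e i = m i)).card
              ≤ ∑ _m ∈ M, (r + 1) := Finset.sum_le_sum hnb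
            _ = M.card * (r + 1) := by rw [Finset.sum_const, smul_eq_mul]
        have h3 : r + 1 ≤ 2 * (r - 1) := by omega
        have h4 : M.card * (r + 1) ≤ M.card * (2 * (r - 1)) := Nat.mul_le_mul_left _ h3
        have h5 : M.card * (2 * (r - 1)) = 2 * ((r - 1) * M.card) := by ring
        omega

/-- **Ryser's conjecture for hypergraphs of maximum degree two.**  For every `r ≥ 3`, every
`r`-partite `r`-uniform hypergraph `H` in which every vertex lies in at most two edges satisfies
`τ(H) ≤ (r - 1) ν(H)`. -/
theorem result (r : ℕ) (hr : 3 ≤ r) (α : Type*) [DecidableEq α] (H : Finset (Fin r → α))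
    (hdeg : ∀ i x, (H.filter (fun e => e i = x)).card ≤ 2) :
    tau H ≤ (r - 1) * nu H := by
  obtain ⟨C, M, hC, hM, hle⟩ := key hr H.card H rfl hdeg
  have h1 : tau H ≤ C.card := Nat.sInf_le ⟨C, hC, rfl⟩
  have h2 : M.card ≤ nu H := by
    refine le_csSup ⟨H.card, ?_⟩ ⟨M, hM, rfl⟩
    rintro k ⟨M', hM', rfl⟩
    exact Finset.card_le_card hM'.1
  calc tau H ≤ C.card := h1
    _ ≤ (r - 1) * M.card := hle
    _ ≤ (r - 1) * nu H := Nat.mul_le_mul_left _ h2

end Vale.Agent.Results.P045.DegreeTwo
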