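import Mathlib

/-!
# P045: Ryser's inequality for hypergraphs of small maximum degree

Every `r`-partite `r`-uniform hypergraph in which every vertex lies in at most `Δ` edges
satisfies `τ ≤ (r - 1) ν`, provided `Δ = 3` and `r ≥ 4`, or `Δ = 4` and `r ≥ 6`, or `Δ = 5` and
`r ≥ 13`.

Proof.  Induction on the number of edges.  An edge with a vertex in no other edge is removed
together with all edges meeting it, at the cost of `r - 1` cover vertices.  Otherwise every
vertex of an edge has degree between `2` and `Δ`.  For an edge `e` let `K e` be the sum of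
`deg v - 2` over its vertices `v`.  A greedy matching (always take an edge with the least `K`)
has at least `∑ e, 1 / (1 + r + K e)` edges, since an edge `e` meets at most `r + K e` other
edges.  The `r` sides together have `∑ e, ∑ v ∈ e, 1 / deg v` vertices, which is at most
`∑ e, (r / 2 - K e / (2 Δ))` because `1 / d ≤ 1 / 2 - (d - 2) / (2 Δ)` for `2 ≤ d ≤ Δ`; so some
side has at most the `r`-th part of this, and it is a cover.  Finally
the product of `r / 2 - K / (2 Δ)` and `1 + r + K` is at most `r (r - 1)` for all integers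
`K ≥ 0` in the three cases.
-/

namespace Vale.Agent.Results.P045.SmallDegree

open Finset

/-- An `r`-partite `r`-uniform hypergraph is given by a finite set `H` of edges, an edge being
a function `e : Fin r → α`; the vertices are the pairs `⟨i, x⟩` (vertex `x` of part `i`) and the
edge `e` consists of the `r` vertices `⟨i, e i⟩`.  A set `C` of vertices is a vertex cover of `H`
if every edge contains a vertex of `C`. -/
def IsCover {r : ℕ} {α : Type*} (H : Finset (Fin r → α)) (C : Finset (Fin r × α)) : Prop :=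
  ∀ e ∈ H, ∃ v ∈ C, e v.1 = v.2

/-- `M` is a matching of `H`: a set of edges of `H` that are pairwise disjoint, that is, two
distinct edges of `M` differ in every part. -/
def IsMatching {r : ℕ} {α : Type*} (H M : Finset (Fin r → α)) : Prop :=
  M ⊆ H ∧ ∀ e ∈ M, ∀ f ∈ M, e ≠ f → ∀ i, e i ≠ f i

/-- The covering number: the least size of a vertex cover. -/
noncomputable def tau {r : ℕ} {α : Type*} (H : Finset (Fin r → α)) : ℕ :=
  sInf {k | ∃ C, IsCover H C ∧ C.card = k}

/-- The matching number: the largest size of a matching. -/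
noncomputable def nu {r : ℕ} {α : Type*} (H : Finset (Fin r → α)) : ℕ :=
  sSup {k | ∃ M, IsMatching H M ∧ M.card = k}

section

variable {r : ℕ} {α : Type*} [DecidableEq α]

/-- Adding an edge `e` to a matching of the edges disjoint from `e`. -/
theorem isMatching_insert (H M' : Finset (Fin r → α)) (e : Fin r → α) (heH : e ∈ H)
    (hM' : IsMatching (H.filter (fun f => ∀ j, f j ≠ e j)) M') :
    IsMatching H (insert e M') := by
  refine ⟨?_, ?_⟩
  · intro f hf
    rcases Finset.mem_insert.1 hf with rfl | hf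
    · exact heH
    · exact (Finset.mem_filter.1 (hM'.1 hf)).1
  · intro f hf g hg hfg
    rcases Finset.mem_insert.1 hf with hfe | hf'
    · rcases Finset.mem_insert.1 hg with hge | hg'
      · exact absurd (hfe.trans hge.symm) hfg
      · intro j h
        rw [hfe] at h
        exact (Finset.mem_filter.1 (hM'.1 hg')).2 j h.symm
    · rcases Finset.mem_insert.1 hg with hge | hg'
      · rw [hge]
        exact (Finset.mem_filter.1 (hM'.1 hf')).2
      · exact hM'.2 f hf' g hg' hfg

/-- Greedy matching with weights: if every edge `e` meets at most `D e` other edges, there is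
a matching with at least `∑ e, 1 / (D e + 1)` edges. -/
theorem greedy (hr : 0 < r) (D : (Fin r → α) → ℕ) :
    ∀ n (H : Finset (Fin r → α)), H.card = n →
      (∀ e ∈ H, (H.filter (fun f => ∃ i, f i = e i)).card ≤ D e + 1) →
      ∃ M, IsMatching H M ∧ ∑ e ∈ H, (1 / ((D e : ℚ) + 1)) ≤ (M.card : ℚ) := by
  intro n
  induction n using Nat.strong_induction_on with
  | _ n ih =>
    intro H hcard hD
    rcases H.eq_empty_or_nonempty with rfl | hne
    · exact ⟨∅, ⟨Finset.empty_subset _, fun e he => absurd he (Finset.notMem_empty _)⟩,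
        by simp⟩
    · obtain ⟨e, heH, hmin⟩ := Finset.exists_min_image H D hne
      have i0 : Fin r := ⟨0, hr⟩
      have hsub : H.filter (fun f => ∀ j, f j ≠ e j) ⊆ H := Finset.filter_subset _ _
      have hlt : (H.filter (fun f => ∀ j, f j ≠ e j)).card < n := by
        rw [← hcard]
        apply Finset.card_lt_card
        refine ⟨hsub, fun h => ?_⟩
        have h1 := h heH
        rw [Finset.mem_filter] at h1
        exact h1.2 i0 rfl
      have hD' : ∀ f ∈ H.filter (fun f => ∀ j, f j ≠ e j),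
          ((H.filter (fun f => ∀ j, f j ≠ e j)).filter (fun g => ∃ i, g i = f i)).card
            ≤ D f + 1 := by
        intro f hf
        refine le_trans (Finset.card_le_card ?_) (hD f (hsub hf))
        exact Finset.filter_subset_filter _ hsub
      obtain ⟨M', hM', hsum⟩ := ih _ hlt _ rfl hD'
      have heM : e ∉ M' := fun h => (Finset.mem_filter.1 (hM'.1 h)).2 i0 rfl
      refine ⟨insert e M', isMatching_insert H M' e heH hM', ?_⟩
      rw [Finset.card_insert_of_notMem heM]
      have hsplit : ∑ f ∈ H, (1 / ((D f : ℚ) + 1))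
          = ∑ f ∈ H.filter (fun f => ∀ j, f j ≠ e j), (1 / ((D f : ℚ) + 1))
            + ∑ f ∈ H.filter (fun f => ∃ j, f j = e j), (1 / ((D f : ℚ) + 1)) := by
        rw [← Finset.sum_filter_add_sum_filter_not H (fun f => ∀ j, f j ≠ e j)]
        congr 1
        refine Finset.sum_congr ?_ (fun _ _ => rfl)
        ext f
        simp only [Finset.mem_filter, not_forall, not_not]
      have hN : ∑ f ∈ H.filter (fun f => ∃ j, f j = e j), (1 / ((D f : ℚ) + 1)) ≤ 1 := by
        calc ∑ f ∈ H.filter (fun f => ∃ j, f j = e j), (1 / ((D f : ℚ) + 1))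
            ≤ ∑ _f ∈ H.filter (fun f => ∃ j, f j = e j), (1 / ((D e : ℚ) + 1)) := by
              refine Finset.sum_le_sum fun f hf => ?_
              have hfH := (Finset.mem_filter.1 hf).1
              have h1 : (D e : ℚ) ≤ D f := by exact_mod_cast hmin f hfH
              have h2 : (0 : ℚ) < (D e : ℚ) + 1 := by positivity
              exact one_div_le_one_div_of_le h2 (by linarith)
          _ = ((H.filter (fun f => ∃ j, f j = e j)).card : ℚ) * (1 / ((D e : ℚ) + 1)) := by
              rw [Finset.sum_const, nsmul_eq_mul]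
          _ ≤ ((D e : ℚ) + 1) * (1 / ((D e : ℚ) + 1)) := by
              have h3 : ((H.filter (fun f => ∃ j, f j = e j)).card : ℚ) ≤ (D e : ℚ) + 1 := by
                exact_mod_cast hD e heH
              have h4 : (0 : ℚ) ≤ 1 / ((D e : ℚ) + 1) := by positivity
              exact mul_le_mul_of_nonneg_right h3 h4
          _ = 1 := by
              have h2 : ((D e : ℚ) + 1) ≠ 0 := by positivity
              field_simp
      rw [hsplit]
      push_cast
      linarith

/-- The case in which every vertex of every edge lies in a second edge, for a degree bound `Δ`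
and a number of sides `r` satisfying the numerical condition `hQ`. -/
theorem caseB (Δ : ℕ) (hΔ : 2 ≤ Δ) (hr : 2 ≤ r)
    (hQ : ∀ K : ℕ, ((r : ℚ) / 2 - (K : ℚ) / (2 * Δ)) * ((r : ℚ) + K + 1)
      ≤ (r : ℚ) * ((r : ℚ) - 1))
    (H : Finset (Fin r → α))
    (hdeg : ∀ i x, (H.filter (fun e => e i = x)).card ≤ Δ)
    (hB : ∀ e ∈ H, ∀ i, ∃ f ∈ H, f i = e i ∧ f ≠ e) :
    ∃ C M, IsCover H C ∧ IsMatching H M ∧ C.card ≤ (r - 1) * M.card := by
  classical
  have hdg2 : ∀ e ∈ H, ∀ i, 2 ≤ (H.filter (fun f => f i = e i)).card := by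
    intro e he i
    obtain ⟨f, hf, hfe, hne⟩ := hB e he i
    have h1 : 1 < (H.filter (fun e' => e' i = e i)).card := by
      rw [Finset.one_lt_card]
      exact ⟨e, Finset.mem_filter.2 ⟨he, rfl⟩, f, Finset.mem_filter.2 ⟨hf, hfe⟩,
        fun h => hne h.symm⟩
    exact h1
  -- `K e` is the sum of `deg v - 2` over the vertices `v` of `e`
  set K : (Fin r → α) → ℕ := fun e => ∑ i, ((H.filter (fun f => f i = e i)).card - 2) with hK
  -- an edge meets at most `r + K e` other edges
  have hnb : ∀ e ∈ H, (H.filter (fun f => ∃ i, f i = e i)).card ≤ (r + K e) + 1 := by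
    intro e he
    have hsub : H.filter (fun f => ∃ i, f i = e i) ⊆
        insert e (Finset.univ.biUnion (fun i => (H.filter (fun f => f i = e i)).erase e)) := by
      intro f hf
      obtain ⟨hfH, i, hi⟩ := Finset.mem_filter.1 hf
      by_cases hfe : f = e
      · exact Finset.mem_insert.2 (Or.inl hfe)
      · exact Finset.mem_insert.2 (Or.inr (Finset.mem_biUnion.2 ⟨i, Finset.mem_univ _,
          Finset.mem_erase.2 ⟨hfe, Finset.mem_filter.2 ⟨hfH, hi⟩⟩⟩))
    refine le_trans (Finset.card_le_card hsub) ?_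
    refine le_trans (Finset.card_insert_le _ _) ?_
    have h1 : (Finset.univ.biUnion (fun i => (H.filter (fun f => f i = e i)).erase e)).card
        ≤ r + K e := by
      refine le_trans Finset.card_biUnion_le ?_
      have h2 : ∀ i : Fin r, ((H.filter (fun f => f i = e i)).erase e).card
          = 1 + ((H.filter (fun f => f i = e i)).card - 2) := by
        intro i
        have hmem : e ∈ H.filter (fun f => f i = e i) := Finset.mem_filter.2 ⟨he, rfl⟩
        rw [Finset.card_erase_of_mem hmem]
        have := hdg2 e he i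
        omega
      rw [Finset.sum_congr rfl (fun i _ => h2 i), Finset.sum_add_distrib]
      simp [hK]
    omega
  obtain ⟨M, hM, hsum⟩ := greedy (by omega) (fun e => r + K e) H.card H rfl hnb
  -- the number of vertices of side `i`
  have hside : ∀ i : Fin r, ((H.image (fun e => (i, e i))).card : ℚ)
      = ∑ e ∈ H, (1 / ((H.filter (fun f => f i = e i)).card : ℚ)) := by
    intro i
    have hmaps : ∀ e ∈ H, (fun e : Fin r → α => (i, e i)) e ∈ H.image (fun e => (i, e i)) :=
      fun e he => Finset.mem_image_of_mem _ he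
    rw [← Finset.sum_fiberwise_of_maps_to hmaps, Finset.card_eq_sum_ones, Nat.cast_sum]
    refine Finset.sum_congr rfl fun v hv => ?_
    obtain ⟨e0, he0, rfl⟩ := Finset.mem_image.1 hv
    have hfib : H.filter (fun e => (i, e i) = (i, e0 i)) = H.filter (fun e => e i = e0 i) := by
      ext e
      simp
    rw [hfib]
    have hconst : ∀ e ∈ H.filter (fun e => e i = e0 i),
        (1 / ((H.filter (fun f => f i = e i)).card : ℚ))
          = 1 / ((H.filter (fun f => f i = e0 i)).card : ℚ) := by
      intro e he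
      rw [(Finset.mem_filter.1 he).2]
    rw [Finset.sum_congr rfl hconst, Finset.sum_const, nsmul_eq_mul]
    have hpos : ((H.filter (fun f => f i = e0 i)).card : ℚ) ≠ 0 := by
      have := hdg2 e0 he0 i
      have h0 : (H.filter (fun f => f i = e0 i)).card ≠ 0 := by omega
      exact_mod_cast h0
    rw [Nat.cast_one, mul_one_div_cancel hpos]
  have hΔq : (2 : ℚ) ≤ Δ := by exact_mod_cast hΔ
  -- the inequality for one edge
  have hedge : ∀ e ∈ H, ∑ i : Fin r, (1 / ((H.filter (fun f => f i = e i)).card : ℚ))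
      ≤ (r : ℚ) * ((r : ℚ) - 1) * (1 / (((r + K e : ℕ) : ℚ) + 1)) := by
    intro e he
    have h1 : ∑ i : Fin r, (1 / ((H.filter (fun f => f i = e i)).card : ℚ))
        ≤ (r : ℚ) / 2 - (K e : ℚ) / (2 * Δ) := by
      have h2 : ∀ i : Fin r, (1 / ((H.filter (fun f => f i = e i)).card : ℚ))
          ≤ 1 / 2 - (((H.filter (fun f => f i = e i)).card - 2 : ℕ) : ℚ) / (2 * Δ) := by
        intro i
        have h2' := hdg2 e he i
        have h3' := hdeg i (e i)
        obtain ⟨t, ht⟩ : ∃ t : ℕ, (H.filter (fun f => f i = e i)).card = t + 2 :=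
          ⟨(H.filter (fun f => f i = e i)).card - 2, by omega⟩
        obtain ⟨u, hu⟩ : ∃ u : ℕ, Δ = t + 2 + u := ⟨Δ - (t + 2), by omega⟩
        rw [ht, Nat.add_sub_cancel, hu]
        push_cast
        have ht0 : (0 : ℚ) ≤ t := by positivity
        have hu0 : (0 : ℚ) ≤ u := by positivity
        have hid : (1 : ℚ) / 2 - (t : ℚ) / (2 * ((t : ℚ) + 2 + u)) - 1 / ((t : ℚ) + 2)
            = (t : ℚ) * u / (2 * ((t : ℚ) + 2) * ((t : ℚ) + 2 + u)) := by
          field_simp
          ring
        have hpos : (0 : ℚ) ≤ (t : ℚ) * u / (2 * ((t : ℚ) + 2) * ((t : ℚ) + 2 + u)) := by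
          positivity
        linarith
      have hsumK : (K e : ℚ)
          = ∑ i : Fin r, (((H.filter (fun f => f i = e i)).card - 2 : ℕ) : ℚ) := by
        rw [hK]
        exact Nat.cast_sum _ _
      calc ∑ i : Fin r, (1 / ((H.filter (fun f => f i = e i)).card : ℚ))
          ≤ ∑ i : Fin r, (1 / 2
              - (((H.filter (fun f => f i = e i)).card - 2 : ℕ) : ℚ) / (2 * Δ)) :=
            Finset.sum_le_sum fun i _ => h2 i
        _ = (r : ℚ) / 2 - (K e : ℚ) / (2 * Δ) := by
            rw [Finset.sum_sub_distrib, ← Finset.sum_div Finset.univ _ (2 * (Δ : ℚ)), ← hsumK,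
              Finset.sum_const, Finset.card_univ, Fintype.card_fin, nsmul_eq_mul]
            ring
    have hden : (0 : ℚ) < ((r + K e : ℕ) : ℚ) + 1 := by positivity
    rw [mul_one_div, le_div_iff₀ hden]
    have hq := hQ (K e)
    have hden0 : (0 : ℚ) ≤ ((r + K e : ℕ) : ℚ) + 1 := le_of_lt hden
    calc (∑ i : Fin r, (1 / ((H.filter (fun f => f i = e i)).card : ℚ)))
          * (((r + K e : ℕ) : ℚ) + 1)
        ≤ ((r : ℚ) / 2 - (K e : ℚ) / (2 * Δ)) * (((r + K e : ℕ) : ℚ) + 1) :=
          mul_le_mul_of_nonneg_right h1 hden0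
      _ = ((r : ℚ) / 2 - (K e : ℚ) / (2 * Δ)) * ((r : ℚ) + K e + 1) := by
          push_cast
          ring
      _ ≤ (r : ℚ) * ((r : ℚ) - 1) := hq
  -- some side is small
  have htotal : ∑ i : Fin r, ((H.image (fun e => (i, e i))).card : ℚ)
      ≤ ∑ _i : Fin r, (((r : ℚ) - 1) * (M.card : ℚ)) := by
    have hr0 : (0 : ℚ) ≤ (r : ℚ) * ((r : ℚ) - 1) := by
      have hr2 : (2 : ℚ) ≤ r := by exact_mod_cast hr
      nlinarith
    calc ∑ i : Fin r, ((H.image (fun e => (i, e i))).card : ℚ)
        = ∑ i : Fin r, ∑ e ∈ H, (1 / ((H.filter (fun f => f i = e i)).card : ℚ)) :=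
          Finset.sum_congr rfl fun i _ => hside i
      _ = ∑ e ∈ H, ∑ i : Fin r, (1 / ((H.filter (fun f => f i = e i)).card : ℚ)) :=
          Finset.sum_comm
      _ ≤ ∑ e ∈ H, ((r : ℚ) * ((r : ℚ) - 1) * (1 / (((r + K e : ℕ) : ℚ) + 1))) :=
          Finset.sum_le_sum hedge
      _ = (r : ℚ) * ((r : ℚ) - 1) * ∑ e ∈ H, (1 / (((r + K e : ℕ) : ℚ) + 1)) := by
          rw [Finset.mul_sum]
      _ ≤ (r : ℚ) * ((r : ℚ) - 1) * (M.card : ℚ) := mul_le_mul_of_nonneg_left hsum hr0
      _ = ∑ _i : Fin r, (((r : ℚ) - 1) * (M.card : ℚ)) := by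
          rw [Finset.sum_const, Finset.card_univ, Fintype.card_fin, nsmul_eq_mul]
          ring
  have hne : (Finset.univ : Finset (Fin r)).Nonempty := ⟨⟨0, by omega⟩, Finset.mem_univ _⟩
  obtain ⟨i, -, hi⟩ := Finset.exists_le_of_sum_le hne htotal
  refine ⟨H.image (fun e => (i, e i)), M, ?_, hM, ?_⟩
  · intro e he
    exact ⟨(i, e i), Finset.mem_image_of_mem _ he, rfl⟩
  · have hcast : (((r - 1) * M.card : ℕ) : ℚ) = ((r : ℚ) - 1) * (M.card : ℚ) := by
      rw [Nat.cast_mul, Nat.cast_sub (by omega : 1 ≤ r), Nat.cast_one]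
    have : ((H.image (fun e => (i, e i))).card : ℚ) ≤ (((r - 1) * M.card : ℕ) : ℚ) := by
      rw [hcast]
      exact hi
    exact_mod_cast this

theorem key (Δ : ℕ) (hΔ : 2 ≤ Δ) (hr : 2 ≤ r)
    (hQ : ∀ K : ℕ, ((r : ℚ) / 2 - (K : ℚ) / (2 * Δ)) * ((r : ℚ) + K + 1)
      ≤ (r : ℚ) * ((r : ℚ) - 1)) :
    ∀ n (H : Finset (Fin r → α)), H.card = n →
      (∀ i x, (H.filter (fun e => e i = x)).card ≤ Δ) →
      ∃ C M, IsCover H C ∧ IsMatching H M ∧ C.card ≤ (r - 1) * M.card := by
  classical
  intro n
  induction n using Nat.strong_induction_on with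
  | _ n ih =>
    intro H hcard hdeg
    have i0 : Fin r := ⟨0, by omega⟩
    by_cases hA : ∃ e ∈ H, ∃ i, ∀ f ∈ H, f i = e i → f = e
    · -- some edge has a vertex lying in no other edge
      obtain ⟨e, heH, i, hi⟩ := hA
      have hlt : (H.filter (fun f => ∀ j, f j ≠ e j)).card < n := by
        rw [← hcard]
        apply Finset.card_lt_card
        refine ⟨Finset.filter_subset _ _, ?_⟩
        intro hsub
        have h1 := hsub heH
        rw [Finset.mem_filter] at h1
        exact h1.2 i0 rfl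
      have hdeg' : ∀ i x, ((H.filter (fun f => ∀ j, f j ≠ e j)).filter
          (fun e => e i = x)).card ≤ Δ := by
        intro i x
        refine le_trans (Finset.card_le_card ?_) (hdeg i x)
        exact Finset.filter_subset_filter _ (Finset.filter_subset _ _)
      obtain ⟨C', M', hC', hM', hle⟩ := ih _ hlt _ rfl hdeg'
      refine ⟨C' ∪ (Finset.univ.erase i).image (fun j => (j, e j)), insert e M', ?_,
        isMatching_insert H M' e heH hM', ?_⟩
      · intro f hf
        by_cases hfe : ∀ j, f j ≠ e j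
        · obtain ⟨v, hv, hv2⟩ := hC' f (Finset.mem_filter.2 ⟨hf, hfe⟩)
          exact ⟨v, Finset.mem_union_left _ hv, hv2⟩
        · push Not at hfe
          obtain ⟨j, hj⟩ := hfe
          by_cases hji : j = i
          · subst hji
            have hfe' : f = e := hi f hf hj
            subst hfe'
            obtain ⟨k, hk⟩ : ∃ k : Fin r, k ≠ j := by
              by_cases h0 : j = ⟨0, by omega⟩
              · exact ⟨⟨1, by omega⟩, by rw [h0]; simp [Fin.ext_iff]⟩
              · exact ⟨⟨0, by omega⟩, fun h => h0 h.symm⟩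
            exact ⟨(k, f k), Finset.mem_union_right _ (Finset.mem_image.2
              ⟨k, Finset.mem_erase.2 ⟨hk, Finset.mem_univ _⟩, rfl⟩), rfl⟩
          · exact ⟨(j, e j), Finset.mem_union_right _ (Finset.mem_image.2
              ⟨j, Finset.mem_erase.2 ⟨hji, Finset.mem_univ _⟩, rfl⟩), hj⟩
      · have heM : e ∉ M' := by
          intro h
          exact (Finset.mem_filter.1 (hM'.1 h)).2 i0 rfl
        rw [Finset.card_insert_of_notMem heM]
        have h1 : ((Finset.univ.erase i).image (fun j => (j, e j))).card ≤ r - 1 := by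
          refine le_trans Finset.card_image_le ?_
          rw [Finset.card_erase_of_mem (Finset.mem_univ _)]
          simp
        have h2 := Finset.card_union_le C' ((Finset.univ.erase i).image (fun j => (j, e j)))
        have h3 : (r - 1) * (M'.card + 1) = (r - 1) * M'.card + (r - 1) := by ring
        omega
    · -- every vertex of every edge lies in a second edge
      push Not at hA
      exact caseB Δ hΔ hr hQ H hdeg (fun e he i => by
        obtain ⟨f, hf, hfe, hne⟩ := hA e he i
        exact ⟨f, hf, hfe, hne⟩)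

end

/-- The numerical condition for `Δ = 3`, `r ≥ 4`. -/
theorem num3 (r : ℕ) (hr : 4 ≤ r) (K : ℕ) :
    ((r : ℚ) / 2 - (K : ℚ) / (2 * (3 : ℕ))) * ((r : ℚ) + K + 1) ≤ (r : ℚ) * ((r : ℚ) - 1) := by
  have hr4 : (4 : ℚ) ≤ r := by exact_mod_cast hr
  have hrr : (0 : ℚ) ≤ (r : ℚ) * ((r : ℚ) - 4) := by nlinarith
  -- the product of `K - r` and `K - r + 1` is nonnegative for integers
  have hkk : (0 : ℚ) ≤ ((K : ℚ) - r) * ((K : ℚ) - r + 1) := by
    rcases Nat.lt_or_ge K r with h | h
    · have h1 : (K : ℚ) + 1 ≤ r := by exact_mod_cast h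
      nlinarith
    · have h1 : (r : ℚ) ≤ K := by exact_mod_cast h
      nlinarith
  push_cast
  nlinarith

/-- The numerical condition for `Δ = 4`, `r ≥ 6`. -/
theorem num4 (r : ℕ) (hr : 6 ≤ r) (K : ℕ) :
    ((r : ℚ) / 2 - (K : ℚ) / (2 * (4 : ℕ))) * ((r : ℚ) + K + 1) ≤ (r : ℚ) * ((r : ℚ) - 1) := by
  push_cast
  rcases Nat.eq_or_lt_of_le hr with h | h
  · -- `r = 6`: the product of `K - 8` and `K - 9` is nonnegative for integers
    subst h
    have hkk : (0 : ℚ) ≤ ((K : ℚ) - 8) * ((K : ℚ) - 9) := by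
      rcases Nat.lt_or_ge K 9 with h | h
      · have h1 : (K : ℚ) ≤ 8 := by exact_mod_cast Nat.lt_succ_iff.mp h
        nlinarith
      · have h1 : (9 : ℚ) ≤ K := by exact_mod_cast h
        nlinarith
    push_cast
    nlinarith
  · have hr7 : (7 : ℚ) ≤ r := by exact_mod_cast h
    have hrr : (7 : ℚ) ≤ (r : ℚ) * ((r : ℚ) - 6) := by nlinarith
    nlinarith [sq_nonneg (2 * (K : ℚ) - 3 * r + 1)]

/-- The numerical condition for `Δ = 5`, `r ≥ 13`. -/
theorem num5 (r : ℕ) (hr : 13 ≤ r) (K : ℕ) :
    ((r : ℚ) / 2 - (K : ℚ) / (2 * (5 : ℕ))) * ((r : ℚ) + K + 1) ≤ (r : ℚ) * ((r : ℚ) - 1) := by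
  have hr13 : (13 : ℚ) ≤ r := by exact_mod_cast hr
  have hrr : (0 : ℚ) ≤ (r : ℚ) * ((r : ℚ) - 13) := by nlinarith
  -- the product of `K - 2 r` and `K - 2 r + 1` is nonnegative for integers
  have hkk : (0 : ℚ) ≤ ((K : ℚ) - 2 * r) * ((K : ℚ) - 2 * r + 1) := by
    rcases Nat.lt_or_ge K (2 * r) with h | h
    · have h1 : (K : ℚ) + 1 ≤ 2 * r := by exact_mod_cast h
      nlinarith
    · have h1 : (2 : ℚ) * r ≤ K := by exact_mod_cast h
      nlinarith
  push_cast
  nlinarith

/-- **Ryser's inequality for hypergraphs of small maximum degree.**  Let `H` be an `r`-partite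
`r`-uniform hypergraph in which every vertex lies in at most `Δ` edges, where `Δ = 3` and
`r ≥ 4`, or `Δ = 4` and `r ≥ 6`, or `Δ = 5` and `r ≥ 13`.  Then `τ(H) ≤ (r - 1) ν(H)`. -/
theorem result (r Δ : ℕ) (h : (Δ = 3 ∧ 4 ≤ r) ∨ (Δ = 4 ∧ 6 ≤ r) ∨ (Δ = 5 ∧ 13 ≤ r))
    (α : Type*) [DecidableEq α] (H : Finset (Fin r → α))
    (hdeg : ∀ i x, (H.filter (fun e => e i = x)).card ≤ Δ) :
    tau H ≤ (r - 1) * nu H := by
  have hkey : ∃ C M, IsCover H C ∧ IsMatching H M ∧ C.card ≤ (r - 1) * M.card := by
    rcases h with ⟨rfl, hr⟩ | ⟨rfl, hr⟩ | ⟨rfl, hr⟩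
    · exact key 3 (by omega) (by omega) (num3 r hr) H.card H rfl hdeg
    · exact key 4 (by omega) (by omega) (num4 r hr) H.card H rfl hdeg
    · exact key 5 (by omega) (by omega) (num5 r hr) H.card H rfl hdeg
  obtain ⟨C, M, hC, hM, hle⟩ := hkey
  have h1 : tau H ≤ C.card := Nat.sInf_le ⟨C, hC, rfl⟩
  have h2 : M.card ≤ nu H := by
    refine le_csSup ⟨H.card, ?_⟩ ⟨M, hM, rfl⟩
    rintro k ⟨M', hM', rfl⟩
    exact Finset.card_le_card hM'.1
  calc tau H ≤ C.card := h1
    _ ≤ (r - 1) * M.card := hle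
    _ ≤ (r - 1) * nu H := Nat.mul_le_mul_left _ h2

end Vale.Agent.Results.P045.SmallDegree
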